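import Vale.Agent.P062.Game

/-!
# A bitboard checker for lists of winning patterns
-/

namespace Vale.Agent.P062

/-! ### Bitboards of width 20 -/

/-- the cell with index `i` -/
def cellOf (i : ℕ) : Cell := (((i % 20 : ℕ) : ℤ), ((i / 20 : ℕ) : ℤ))

theorem cellOf_inj {i j : ℕ} (h : cellOf i = cellOf j) : i = j := by
  unfold cellOf at h
  rw [Prod.mk.injEq] at h
  obtain ⟨h1, h2⟩ := h
  have h1' : i % 20 = j % 20 := by exact_mod_cast h1
  have h2' : i / 20 = j / 20 := by exact_mod_cast h2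
  omega

/-- the set of cells of a bitboard -/
def S (n : ℕ) : Set Cell := {c | ∃ i, n.testBit i = true ∧ cellOf i = c}

theorem mem_S {n i : ℕ} : cellOf i ∈ S n ↔ n.testBit i = true := by
  constructor
  · rintro ⟨j, hj, h⟩
    rw [← cellOf_inj h]; exact hj
  · intro h; exact ⟨i, h, rfl⟩

theorem S_lor (a b : ℕ) : S (Nat.lor a b) = S a ∪ S b := by
  ext c
  constructor
  · rintro ⟨i, hi, rfl⟩
    have : (a ||| b).testBit i = true := hi
    rw [Nat.testBit_or, Bool.or_eq_true] at this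
    rcases this with h | h
    · exact Or.inl ⟨i, h, rfl⟩
    · exact Or.inr ⟨i, h, rfl⟩
  · rintro (⟨i, hi, rfl⟩ | ⟨i, hi, rfl⟩)
    · refine ⟨i, ?_, rfl⟩
      change (a ||| b).testBit i = true
      rw [Nat.testBit_or, hi, Bool.true_or]
    · refine ⟨i, ?_, rfl⟩
      change (a ||| b).testBit i = true
      rw [Nat.testBit_or, hi, Bool.or_true]

theorem S_land (a b : ℕ) : S (Nat.land a b) = S a ∩ S b := by
  ext c
  constructor
  · rintro ⟨i, hi, rfl⟩
    have : (a &&& b).testBit i = true := hi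
    rw [Nat.testBit_and, Bool.and_eq_true] at this
    exact ⟨⟨i, this.1, rfl⟩, ⟨i, this.2, rfl⟩⟩
  · rintro ⟨⟨i, hi, rfl⟩, h⟩
    rw [mem_S] at h
    refine ⟨i, ?_, rfl⟩
    change (a &&& b).testBit i = true
    rw [Nat.testBit_and, hi, h]; rfl

theorem testBit_bit (y i : ℕ) : (Nat.shiftLeft 1 y).testBit i = decide (y = i) := by
  change (1 <<< y).testBit i = decide (y = i)
  rw [Nat.one_shiftLeft, Nat.testBit_two_pow]

theorem S_bit (y : ℕ) : S (Nat.shiftLeft 1 y) = {cellOf y} := by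
  ext c
  constructor
  · rintro ⟨i, hi, rfl⟩
    rw [testBit_bit, decide_eq_true_eq] at hi
    rw [hi]; rfl
  · intro h
    rw [Set.mem_singleton_iff] at h
    exact ⟨y, by rw [testBit_bit]; simp, h.symm⟩

theorem S_xor_land (a b : ℕ) : S (Nat.xor a (Nat.land a b)) = S a \ S b := by
  ext c
  constructor
  · rintro ⟨i, hi, rfl⟩
    have : (a ^^^ (a &&& b)).testBit i = true := hi
    rw [Nat.testBit_xor, Nat.testBit_and] at this
    refine ⟨⟨i, ?_, rfl⟩, ?_⟩
    · by_contra h; simp [h] at this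
    · rw [mem_S]; intro h; simp [h] at this
  · rintro ⟨⟨i, hi, rfl⟩, h⟩
    rw [mem_S] at h
    refine ⟨i, ?_, rfl⟩
    change (a ^^^ (a &&& b)).testBit i = true
    rw [Nat.testBit_xor, Nat.testBit_and, hi]; simp [h]

theorem S_finite (n : ℕ) : (S n).Finite := by
  have : S n ⊆ cellOf '' (Set.Iio n.size) := by
    rintro c ⟨i, hi, rfl⟩
    refine ⟨i, ?_, rfl⟩
    rw [Set.mem_Iio]
    by_contra h
    rw [not_lt] at h
    have := Nat.testBit_eq_false_of_lt (lt_of_lt_of_le (Nat.lt_size_self n) (Nat.pow_le_pow_right (by norm_num) h))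
    rw [this] at hi
    exact absurd hi (by simp)
  exact (Set.Finite.image _ (Set.finite_Iio _)).subset this

theorem exists_notMem_S (n : ℕ) : ∃ b, b ∉ S n := by
  by_contra h
  push Not at h
  have : (Set.univ : Set Cell) ⊆ S n := fun b _ => h b
  exact Set.infinite_univ ((S_finite n).subset this)

/-! ### Copies as bitboards -/

/-- the six offsets of the orientation with number `o`, as pairs `(dx, dy)` -/
def offs : ℕ → List (ℕ × ℕ)
  | 0 => [(0, 0), (1, 0), (2, 0), (3, 0), (3, 1), (4, 1)]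
  | 1 => [(4, 0), (3, 0), (2, 0), (1, 0), (1, 1), (0, 1)]
  | 2 => [(0, 1), (1, 1), (2, 1), (3, 1), (3, 0), (4, 0)]
  | 3 => [(4, 1), (3, 1), (2, 1), (1, 1), (1, 0), (0, 0)]
  | 4 => [(0, 0), (0, 1), (0, 2), (0, 3), (1, 3), (1, 4)]
  | 5 => [(1, 0), (1, 1), (1, 2), (1, 3), (0, 3), (0, 4)]
  | 6 => [(0, 4), (0, 3), (0, 2), (0, 1), (1, 1), (1, 0)]
  | _ => [(1, 4), (1, 3), (1, 2), (1, 1), (0, 1), (0, 0)]

/-- the width of the orientation with number `o` -/
def width : ℕ → ℕ
  | 0 => 5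
  | 1 => 5
  | 2 => 5
  | 3 => 5
  | _ => 2

/-- the bitboard of the orientation `o` in the corner -/
def base : ℕ → ℕ
  | 0 => 25165839
  | 1 => 3145758
  | 2 => 15728664
  | 3 => 31457283
  | 4 => 2417855097994871682629633
  | 5 => 1208929278381342020599810
  | 6 => 1208926972537233296326658
  | _ => 2417853945074466589507585

theorem testBit_base (o i : ℕ) :
    (base o).testBit i = true ↔ ∃ d ∈ offs o, i = d.1 + 20 * d.2 := by
  have key : ∀ (a b c d e f : ℕ),
      ((2 ^ a ||| 2 ^ b ||| 2 ^ c ||| 2 ^ d ||| 2 ^ e ||| 2 ^ f).testBit i = true ↔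
        (i = a ∨ i = b ∨ i = c ∨ i = d ∨ i = e ∨ i = f)) := by
    intro a b c d e f
    simp only [Nat.testBit_or, Nat.testBit_two_pow, Bool.or_eq_true, decide_eq_true_eq]
    constructor
    · rintro (((((h | h) | h) | h) | h) | h) <;> simp [h]
    · rintro (h | h | h | h | h | h) <;> simp [h]
  have h0 : (25165839 : ℕ) = 2 ^ 0 ||| 2 ^ 1 ||| 2 ^ 2 ||| 2 ^ 3 ||| 2 ^ 23 ||| 2 ^ 24 := by decide
  have h1 : (3145758 : ℕ) = 2 ^ 4 ||| 2 ^ 3 ||| 2 ^ 2 ||| 2 ^ 1 ||| 2 ^ 21 ||| 2 ^ 20 := by decide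
  have h2 : (15728664 : ℕ) = 2 ^ 20 ||| 2 ^ 21 ||| 2 ^ 22 ||| 2 ^ 23 ||| 2 ^ 3 ||| 2 ^ 4 := by decide
  have h3 : (31457283 : ℕ) = 2 ^ 24 ||| 2 ^ 23 ||| 2 ^ 22 ||| 2 ^ 21 ||| 2 ^ 1 ||| 2 ^ 0 := by decide
  have h4 : (2417855097994871682629633 : ℕ) =
      2 ^ 0 ||| 2 ^ 20 ||| 2 ^ 40 ||| 2 ^ 60 ||| 2 ^ 61 ||| 2 ^ 81 := by decide
  have h5 : (1208929278381342020599810 : ℕ) =
      2 ^ 1 ||| 2 ^ 21 ||| 2 ^ 41 ||| 2 ^ 61 ||| 2 ^ 60 ||| 2 ^ 80 := by decide
  have h6 : (1208926972537233296326658 : ℕ) =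
      2 ^ 80 ||| 2 ^ 60 ||| 2 ^ 40 ||| 2 ^ 20 ||| 2 ^ 21 ||| 2 ^ 1 := by decide
  have h7 : (2417853945074466589507585 : ℕ) =
      2 ^ 81 ||| 2 ^ 61 ||| 2 ^ 41 ||| 2 ^ 21 ||| 2 ^ 20 ||| 2 ^ 0 := by decide
  unfold base offs
  split
  · rw [h0, key]; simp
  · rw [h1, key]; simp
  · rw [h2, key]; simp
  · rw [h3, key]; simp
  · rw [h4, key]; simp
  · rw [h5, key]; simp
  · rw [h6, key]; simp
  · rw [h7, key]; simp

theorem offs_lt_width (o : ℕ) : ∀ d ∈ offs o, d.1 < width o := by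
  intro d hd
  unfold offs at hd
  unfold width
  split at hd <;> simp at hd <;> rcases hd with h | h | h | h | h | h <;> subst h <;> simp

theorem S_copyMask {o p : ℕ} (hp : p % 20 + width o ≤ 20) :
    S (Nat.shiftLeft (base o) p) =
      {c | ∃ d ∈ offs o, c = ((((p % 20 : ℕ) : ℤ)) + (d.1 : ℤ), (((p / 20 : ℕ) : ℤ)) + (d.2 : ℤ))} := by
  ext c
  have hcell : ∀ d ∈ offs o, cellOf (p + (d.1 + 20 * d.2)) =
      ((((p % 20 : ℕ) : ℤ)) + (d.1 : ℤ), (((p / 20 : ℕ) : ℤ)) + (d.2 : ℤ)) := by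
    intro d hd
    have hw := offs_lt_width o d hd
    unfold cellOf
    have e1 : (p + (d.1 + 20 * d.2)) % 20 = p % 20 + d.1 := by omega
    have e2 : (p + (d.1 + 20 * d.2)) / 20 = p / 20 + d.2 := by omega
    rw [e1, e2]; push_cast; rfl
  constructor
  · rintro ⟨i, hi, rfl⟩
    have hi' : (base o <<< p).testBit i = true := hi
    rw [Nat.testBit_shiftLeft, Bool.and_eq_true, decide_eq_true_eq] at hi'
    obtain ⟨h1, h2⟩ := hi'
    obtain ⟨d, hd, he⟩ := (testBit_base o _).mp h2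
    refine ⟨d, hd, ?_⟩
    rw [← hcell d hd, ← he]
    congr 1; omega
  · rintro ⟨d, hd, rfl⟩
    refine ⟨p + (d.1 + 20 * d.2), ?_, hcell d hd⟩
    change (base o <<< p).testBit _ = true
    rw [Nat.testBit_shiftLeft, Bool.and_eq_true, decide_eq_true_eq]
    refine ⟨by omega, (testBit_base o _).mpr ⟨d, hd, by omega⟩⟩

theorem isCopy_offs (o : ℕ) (t : Cell) :
    IsCopy ((offs o).toFinset.image fun d => (t.1 + (d.1 : ℤ), t.2 + (d.2 : ℤ))) := by
  have hn : ((-1 : ℤˣ) : ℤ) = -1 := rfl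
  unfold offs
  split
  · refine ⟨t, 1, 1, false, ?_⟩
    ext ⟨x, y⟩; simp [snaky, signedPerm, Prod.ext_iff]
  · refine ⟨(t.1 + 4, t.2), -1, 1, false, ?_⟩
    ext ⟨x, y⟩; simp [snaky, signedPerm, Prod.ext_iff]; omega
  · refine ⟨(t.1, t.2 + 1), 1, -1, false, ?_⟩
    ext ⟨x, y⟩; simp [snaky, signedPerm, Prod.ext_iff]
  · refine ⟨(t.1 + 4, t.2 + 1), -1, -1, false, ?_⟩
    ext ⟨x, y⟩; simp [snaky, signedPerm, Prod.ext_iff]; omega
  · refine ⟨t, 1, 1, true, ?_⟩
    ext ⟨x, y⟩; simp [snaky, signedPerm, Prod.ext_iff]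
  · refine ⟨(t.1 + 1, t.2), -1, 1, true, ?_⟩
    ext ⟨x, y⟩; simp [snaky, signedPerm, Prod.ext_iff]
  · refine ⟨(t.1, t.2 + 4), 1, -1, true, ?_⟩
    ext ⟨x, y⟩; simp [snaky, signedPerm, Prod.ext_iff]; omega
  · refine ⟨(t.1 + 1, t.2 + 4), -1, -1, true, ?_⟩
    ext ⟨x, y⟩; simp [snaky, signedPerm, Prod.ext_iff]; omega

/-! ### Tagged bitboards: a bitboard is stored above 64 bits that carry no information (they only
vary the hash values of the numbers, which speeds up the evaluation) -/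

/-- the set of cells of a tagged bitboard -/
def S' (n : ℕ) : Set Cell := S (n >>> 64)

theorem S'_lor (a b : ℕ) : S' (Nat.lor a b) = S' a ∪ S' b := by
  unfold S'
  rw [← S_lor]
  congr 1
  change (a ||| b) >>> 64 = (a >>> 64) ||| (b >>> 64)
  exact Nat.shiftRight_or_distrib

theorem S'_land (a b : ℕ) : S' (Nat.land a b) = S' a ∩ S' b := by
  unfold S'
  rw [← S_land]
  congr 1
  change (a &&& b) >>> 64 = (a >>> 64) &&& (b >>> 64)
  exact Nat.shiftRight_and_distrib

theorem S'_xor_land (a b : ℕ) : S' (Nat.xor a (Nat.land a b)) = S' a \ S' b := by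
  unfold S'
  rw [← S_xor_land]
  congr 1
  change (a ^^^ (a &&& b)) >>> 64 = (a >>> 64) ^^^ ((a >>> 64) &&& (b >>> 64))
  rw [Nat.shiftRight_xor_distrib, Nat.shiftRight_and_distrib]

theorem shr_small {r : ℕ} (hr : r < 2 ^ 64) : r >>> 64 = 0 := by
  rw [Nat.shiftRight_eq_div_pow, Nat.div_eq_of_lt hr]

/-- changing the tag does not change the set -/
theorem S'_xor_small (n : ℕ) {r : ℕ} (hr : r < 2 ^ 64) : S' (Nat.xor n r) = S' n := by
  unfold S'
  congr 1
  change (n ^^^ r) >>> 64 = n >>> 64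
  rw [Nat.shiftRight_xor_distrib, shr_small hr, Nat.xor_zero]

theorem S'_small {r : ℕ} (hr : r < 2 ^ 64) : S' r = ∅ := by
  unfold S'
  rw [shr_small hr]
  ext c
  simp [S]

theorem shl_shr (a y : ℕ) : (Nat.shiftLeft a (Nat.add y 64)) >>> 64 = Nat.shiftLeft a y := by
  change (a <<< (y + 64)) >>> 64 = a <<< y
  rw [Nat.shiftLeft_add, Nat.shiftLeft_shiftRight]

theorem S'_bit (y : ℕ) : S' (Nat.shiftLeft 1 (Nat.add y 64)) = {cellOf y} := by
  unfold S'
  rw [shl_shr, S_bit]

theorem S'_zero : S' 0 = ∅ := S'_small (by norm_num)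

/-- validity of an entry: needed cells `N`, union `U` of the zones, intersection `I` of the zones -/
def V (N U I : ℕ) : Prop := Good (S' N) (S' U) (S' I)

/-- the needed cells of a default entry -/
def dN : ℕ := Nat.shiftLeft 25165839 64

theorem valid_copy {o p : ℕ} (hp : p % 20 + width o ≤ 20) :
    Good (S' (Nat.shiftLeft (base o) (Nat.add p 64))) ∅ ∅ := by
  have h0 : S' (Nat.shiftLeft (base o) (Nat.add p 64)) = S (Nat.shiftLeft (base o) p) := by
    unfold S'; rw [shl_shr]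
  rw [h0, S_copyMask hp]
  have := patWin_copy (isCopy_offs o ((((p % 20 : ℕ) : ℤ)), (((p / 20 : ℕ) : ℤ))))
  have h2 := Good.of_patWin this
  convert h2 using 1
  ext c
  simp only [Finset.coe_image, List.coe_toFinset, Set.mem_image]
  constructor
  · rintro ⟨d, hd, rfl⟩; exact ⟨d, hd, rfl⟩
  · rintro ⟨d, hd, rfl⟩; exact ⟨d, hd, rfl⟩

theorem valid_dflt : V dN 0 0 := by
  have := valid_copy (o := 0) (p := 0) (by decide)
  unfold V
  rw [S'_zero]
  exact this

theorem Good.weaken {N U I : Set Cell} (X : Set Cell) (h : Good N U I) : Good (N ∪ X) U I := by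
  obtain ⟨k, h⟩ := h
  refine ⟨k, fun b hb => ?_⟩
  obtain ⟨N', Z', hp, hN, hZ, hbZ⟩ := h b hb
  exact ⟨N', Z', hp, hN.trans Set.subset_union_left, hZ, hbZ⟩

/-! ### Evaluation in continuation-passing style -/

/-- evaluate a number before continuing -/
def frc {α : Type} (n : ℕ) (c : ℕ → α) : α :=
  Nat.casesOn (motive := fun _ => α) n (c 0) (fun m => c (Nat.succ m))

theorem frc_eq {α : Type} (n : ℕ) (c : ℕ → α) : frc n c = c n := by
  cases n <;> rfl

/-- the single cell `y` as a tagged bitboard (for `y < 2 ^ 64`) -/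
def bitT (y : ℕ) : ℕ := Nat.xor (Nat.shiftLeft 1 (Nat.add y 64)) y

theorem S'_bitT {y : ℕ} (hy : y < 2 ^ 64) : S' (bitT y) = {cellOf y} := by
  unfold bitT
  rw [S'_xor_small _ hy, S'_bit]

/-- Maker plays `y` and then uses the entry `(N, U, I)`; the result is `(N', U', U')`. -/
def opPlay {α : Type} (w y N U I : ℕ) (k : ℕ → ℕ → α) : α :=
  frc (bitT y) fun b =>
    bif Nat.ble (Nat.xor I (Nat.land I (Nat.lor N b))) 18446744073709551615 then
      frc (Nat.xor (Nat.xor N (Nat.land N b)) w) fun N' =>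
        frc (Nat.xor (Nat.lor U b) w) fun U' => k N' U'
    else k dN 0

theorem opPlay_spec {α : Type} {w y N U I : ℕ} (hw : w < 2 ^ 64) (hy : y < 2 ^ 64)
    (h : V N U I) (k : ℕ → ℕ → α) :
    ∃ N' U', V N' U' U' ∧ opPlay w y N U I k = k N' U' := by
  unfold opPlay
  rw [frc_eq]
  cases hb : Nat.ble (Nat.xor I (Nat.land I (Nat.lor N (bitT y)))) 18446744073709551615
  · exact ⟨dN, 0, valid_dflt, rfl⟩
  · refine ⟨_, _, ?_, by rw [cond_true, frc_eq, frc_eq]⟩
    have hlt : Nat.xor I (Nat.land I (Nat.lor N (bitT y))) < 2 ^ 64 :=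
      lt_of_le_of_lt (Nat.le_of_ble_eq_true hb) (by norm_num)
    have hempty := S'_small hlt
    rw [S'_xor_land, S'_lor, S'_bitT hy, Set.sdiff_eq_empty] at hempty
    unfold V
    rw [S'_xor_small _ hw, S'_xor_small _ hw, S'_xor_land, S'_lor, S'_bitT hy]
    exact Good.play (cellOf y) h hempty

/-- the entry in which Maker plays `y` and completes the copy with code `a`:
result `(N', b)` standing for `(N', b, b)` -/
def leafPlay {α : Type} (w a y : ℕ) (k : ℕ → ℕ → α) : α :=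
  frc (Nat.shiftRight a 9) fun o => frc (Nat.land a 511) fun p =>
    bif Nat.ble (Nat.add (Nat.mod p 20) (width o)) 20 then
      frc (Nat.xor (Nat.shiftLeft (base o) (Nat.add p 64)) w) fun L => frc (bitT y) fun b =>
        frc (Nat.xor L (Nat.land L b)) fun N' => k N' b
    else k dN 0

theorem leafPlay_spec {α : Type} {w a y : ℕ} (hw : w < 2 ^ 64) (hy : y < 2 ^ 64)
    (k : ℕ → ℕ → α) :
    ∃ N' b, V N' b b ∧ leafPlay w a y k = k N' b := by
  unfold leafPlay
  rw [frc_eq, frc_eq]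
  cases hb : Nat.ble (Nat.add (Nat.mod (Nat.land a 511) 20) (width (Nat.shiftRight a 9))) 20
  · exact ⟨dN, 0, valid_dflt, rfl⟩
  · refine ⟨_, _, ?_, by rw [cond_true, frc_eq, frc_eq, frc_eq]⟩
    have hp : (Nat.land a 511) % 20 + width (Nat.shiftRight a 9) ≤ 20 := Nat.le_of_ble_eq_true hb
    have hc := valid_copy hp
    have := Good.play (cellOf y) hc (Set.empty_subset _)
    unfold V
    rw [S'_xor_land, S'_xor_small _ hw, S'_bitT hy]
    simpa using this

/-! ### A store of entries and a stack of entries -/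

/-- a binary tree used as an array of entries -/
inductive T
  | nil
  | node (l : T) (N U I : ℕ) (r : T)

/-- all entries are valid -/
def T.Valid : T → Prop
  | .nil => True
  | .node l N U I r => l.Valid ∧ V N U I ∧ r.Valid

/-- read an entry, then continue -/
def T.get {α : Type} : T → ℕ → (ℕ → ℕ → ℕ → α) → α
  | .nil, _, c => c dN 0 0
  | .node l N U I r, i, c =>
    Nat.casesOn (motive := fun _ => α) i (c N U I)
      (fun j => bif Nat.beq (Nat.land j 1) 0 then l.get (Nat.shiftRight j 1) c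
        else r.get (Nat.shiftRight j 1) c)

theorem T.get_spec {α : Type} {t : T} (h : t.Valid) (i : ℕ) (c : ℕ → ℕ → ℕ → α) :
    ∃ N U I, V N U I ∧ t.get i c = c N U I := by
  induction t generalizing i with
  | nil => exact ⟨dN, 0, 0, valid_dflt, rfl⟩
  | node l N U I r ihl ihr =>
    obtain ⟨h1, h2, h3⟩ := h
    cases i with
    | zero => exact ⟨N, U, I, h2, rfl⟩
    | succ j =>
      have e : (T.node l N U I r).get (j + 1) c =
          bif Nat.beq (Nat.land j 1) 0 then l.get (Nat.shiftRight j 1) c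
            else r.get (Nat.shiftRight j 1) c := rfl
      rw [e]
      cases hb : Nat.beq (Nat.land j 1) 0
      · exact ihr h3 _
      · exact ihl h1 _

/-- store an entry, then continue -/
def T.ins {α : Type} : T → ℕ → ℕ → ℕ → ℕ → (T → α) → α
  | .nil, _, N', U', I', c => c (.node .nil N' U' I' .nil)
  | .node l N U I r, i, N', U', I', c =>
    Nat.casesOn (motive := fun _ => α) i (c (.node l N' U' I' r))
      (fun j => bif Nat.beq (Nat.land j 1) 0 then
          l.ins (Nat.shiftRight j 1) N' U' I' (fun l' => c (.node l' N U I r))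
        else r.ins (Nat.shiftRight j 1) N' U' I' (fun r' => c (.node l N U I r')))

theorem T.ins_spec {α : Type} {t : T} (h : t.Valid) (i : ℕ) {N U I : ℕ} (he : V N U I)
    (c : T → α) : ∃ t' : T, t'.Valid ∧ t.ins i N U I c = c t' := by
  induction t generalizing i c with
  | nil => exact ⟨.node .nil N U I .nil, ⟨trivial, he, trivial⟩, rfl⟩
  | node l N₀ U₀ I₀ r ihl ihr =>
    obtain ⟨h1, h2, h3⟩ := h
    cases i with
    | zero => exact ⟨.node l N U I r, ⟨h1, he, h3⟩, rfl⟩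
    | succ j =>
      have e : (T.node l N₀ U₀ I₀ r).ins (j + 1) N U I c =
          bif Nat.beq (Nat.land j 1) 0 then
            l.ins (Nat.shiftRight j 1) N U I (fun l' => c (.node l' N₀ U₀ I₀ r))
          else r.ins (Nat.shiftRight j 1) N U I (fun r' => c (.node l N₀ U₀ I₀ r')) := rfl
      rw [e]
      cases hb : Nat.beq (Nat.land j 1) 0
      · obtain ⟨t', ht, hc⟩ := ihr h3 (Nat.shiftRight j 1) (fun r' => c (.node l N₀ U₀ I₀ r'))
        exact ⟨.node l N₀ U₀ I₀ t', ⟨h1, h2, ht⟩, hc⟩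
      · obtain ⟨t', ht, hc⟩ := ihl h1 (Nat.shiftRight j 1) (fun l' => c (.node l' N₀ U₀ I₀ r))
        exact ⟨.node t' N₀ U₀ I₀ r, ⟨ht, h2, h3⟩, hc⟩

/-- a stack of entries -/
inductive K
  | nil
  | cons (N U I : ℕ) (k : K)

/-- all entries are valid -/
def K.Valid : K → Prop
  | .nil => True
  | .cons N U I k => V N U I ∧ k.Valid

/-- take the top entry (a default entry if the stack is empty) -/
def K.pop {α : Type} (s : K) (c : ℕ → ℕ → ℕ → K → α) : α :=
  K.casesOn (motive := fun _ => α) s (c dN 0 0 .nil) (fun N U I k => c N U I k)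

theorem K.pop_spec {α : Type} {s : K} (h : s.Valid) (c : ℕ → ℕ → ℕ → K → α) :
    ∃ N U I k, V N U I ∧ k.Valid ∧ s.pop c = c N U I k := by
  cases s with
  | nil => exact ⟨dN, 0, 0, .nil, valid_dflt, trivial, rfl⟩
  | cons N U I k => exact ⟨N, U, I, k, h.1, h.2, rfl⟩

theorem V.and {N₁ U₁ I₁ N₂ U₂ I₂ : ℕ} (h₁ : V N₁ U₁ I₁) (h₂ : V N₂ U₂ I₂) :
    V (Nat.lor N₁ N₂) (Nat.lor U₁ U₂) (Nat.land I₁ I₂) := by
  unfold V
  rw [S'_lor, S'_lor, S'_land]
  exact Good.and h₁ h₂

/-! ### Instructions -/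

/-- `A`: combine the top with a completed copy (code `a`, cell `x`), then play `y` -/
def opA {α : Type} (w : ℕ) (s : K) (t : T) (c : K → T → α) : α :=
  frc (Nat.land (Nat.shiftRight w 3) 511) fun y => frc (Nat.land (Nat.shiftRight w 12) 511) fun x =>
    frc (Nat.shiftRight w 21) fun a => leafPlay w a x fun N₁ b₁ => s.pop fun N U I k =>
      frc (Nat.lor N N₁) fun N₂ => opPlay w y N₂ (Nat.lor U b₁) (Nat.land I b₁) fun N' U' =>
        c (.cons N' U' U' k) t

/-- `B`: play `y` with two completed copies -/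
def opB {α : Type} (w : ℕ) (s : K) (t : T) (c : K → T → α) : α :=
  frc (Nat.land (Nat.shiftRight w 3) 511) fun y => frc (Nat.land (Nat.shiftRight w 12) 511) fun x =>
    frc (Nat.land (Nat.shiftRight w 21) 4095) fun a =>
      frc (Nat.land (Nat.shiftRight w 33) 511) fun x' => frc (Nat.shiftRight w 42) fun a' =>
        leafPlay w a x fun N₁ b₁ => leafPlay w a' x' fun N₂ b₂ =>
          frc (Nat.lor N₁ N₂) fun N₃ => opPlay w y N₃ (Nat.lor b₁ b₂) (Nat.land b₁ b₂) fun N' U' =>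
            c (.cons N' U' U' s) t

/-- `C`: combine the two top entries -/
def opC {α : Type} (_w : ℕ) (s : K) (t : T) (c : K → T → α) : α :=
  s.pop fun N U I k => k.pop fun N' U' I' k' =>
    frc (Nat.lor N N') fun N₂ => frc (Nat.lor U U') fun U₂ => frc (Nat.land I I') fun I₂ =>
      c (.cons N₂ U₂ I₂ k') t

/-- `P`: play `y` with the top entry -/
def opP {α : Type} (w : ℕ) (s : K) (t : T) (c : K → T → α) : α :=
  frc (Nat.shiftRight w 3) fun y => s.pop fun N U I k => opPlay w y N U I fun N' U' =>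
    c (.cons N' U' U' k) t

/-- `G`: push the stored entry with number `i` -/
def opG {α : Type} (w : ℕ) (s : K) (t : T) (c : K → T → α) : α :=
  t.get (Nat.shiftRight w 3) fun N U I => c (.cons N U I s) t

/-- `L`: combine the top with a completed copy (code `a`, cell `x`) -/
def opL {α : Type} (w : ℕ) (s : K) (t : T) (c : K → T → α) : α :=
  frc (Nat.land (Nat.shiftRight w 3) 511) fun x => frc (Nat.shiftRight w 12) fun a =>
    leafPlay w a x fun N₁ b₁ => s.pop fun N U I k =>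
      frc (Nat.lor N N₁) fun N₂ => frc (Nat.lor U b₁) fun U₂ => frc (Nat.land I b₁) fun I₂ =>
        c (.cons N₂ U₂ I₂ k) t

/-- `S`: store the top entry with number `i` (it stays on the stack) -/
def opS {α : Type} (w : ℕ) (s : K) (t : T) (c : K → T → α) : α :=
  s.pop fun N U I k => t.ins (Nat.shiftRight w 3) N U I fun t' => c (.cons N U I k) t'

/-- `W`: require the cell `y` for the top entry -/
def opW {α : Type} (w : ℕ) (s : K) (t : T) (c : K → T → α) : α :=
  frc (Nat.shiftRight w 3) fun y => s.pop fun N U I k => frc (Nat.lor N (bitT y)) fun N' =>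
    c (.cons N' U I k) t

theorem lt_of_land {x m : ℕ} (hm : m < 2 ^ 64) : Nat.land x m < 2 ^ 64 :=
  lt_of_le_of_lt (Nat.and_le_right) hm

theorem lt_of_shr {x j : ℕ} (hx : x < 2 ^ 64) : Nat.shiftRight x j < 2 ^ 64 :=
  lt_of_le_of_lt (Nat.shiftRight_le x j) hx

/-- what has to be shown for an instruction -/
def Sound (f : ∀ {α : Type}, ℕ → K → T → (K → T → α) → α) : Prop :=
  ∀ {α : Type} {w : ℕ}, w < 2 ^ 64 → ∀ {s : K} {t : T}, s.Valid → t.Valid → ∀ c : K → T → α,
    ∃ s' t', s'.Valid ∧ t'.Valid ∧ f w s t c = c s' t'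

theorem sound_A : Sound @opA := by
  intro α w hw s t hs ht c
  unfold opA
  rw [frc_eq, frc_eq, frc_eq]
  obtain ⟨N₁, b₁, h₁, e₁⟩ := leafPlay_spec (a := Nat.shiftRight w 21) hw
    (lt_of_land (x := Nat.shiftRight w 12) (m := 511) (by norm_num))
    (fun N₁ b₁ => s.pop fun N U I k =>
      frc (Nat.lor N N₁) fun N₂ =>
        opPlay w (Nat.land (Nat.shiftRight w 3) 511) N₂ (Nat.lor U b₁) (Nat.land I b₁)
          fun N' U' => c (.cons N' U' U' k) t)
  rw [e₁]
  obtain ⟨N, U, I, k, h, hk, e⟩ := K.pop_spec hs (fun N U I k =>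
      frc (Nat.lor N N₁) fun N₂ =>
        opPlay w (Nat.land (Nat.shiftRight w 3) 511) N₂ (Nat.lor U b₁) (Nat.land I b₁)
          fun N' U' => c (.cons N' U' U' k) t)
  rw [e, frc_eq]
  obtain ⟨N', U', h', e'⟩ := opPlay_spec hw
    (lt_of_land (x := Nat.shiftRight w 3) (m := 511) (by norm_num)) (V.and h h₁)
    (fun N' U' => c (.cons N' U' U' k) t)
  exact ⟨.cons N' U' U' k, t, ⟨h', hk⟩, ht, e'⟩

theorem sound_B : Sound @opB := by
  intro α w hw s t hs ht c
  unfold opB
  rw [frc_eq, frc_eq, frc_eq, frc_eq, frc_eq]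
  obtain ⟨N₁, b₁, h₁, e₁⟩ := leafPlay_spec (a := Nat.land (Nat.shiftRight w 21) 4095) hw
    (lt_of_land (x := Nat.shiftRight w 12) (m := 511) (by norm_num))
    (fun N₁ b₁ => leafPlay w (Nat.shiftRight w 42) (Nat.land (Nat.shiftRight w 33) 511)
      fun N₂ b₂ => frc (Nat.lor N₁ N₂) fun N₃ =>
        opPlay w (Nat.land (Nat.shiftRight w 3) 511) N₃ (Nat.lor b₁ b₂) (Nat.land b₁ b₂)
          fun N' U' => c (.cons N' U' U' s) t)
  rw [e₁]
  obtain ⟨N₂, b₂, h₂, e₂⟩ := leafPlay_spec (a := Nat.shiftRight w 42) hw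
    (lt_of_land (x := Nat.shiftRight w 33) (m := 511) (by norm_num))
    (fun N₂ b₂ => frc (Nat.lor N₁ N₂) fun N₃ =>
        opPlay w (Nat.land (Nat.shiftRight w 3) 511) N₃ (Nat.lor b₁ b₂) (Nat.land b₁ b₂)
          fun N' U' => c (.cons N' U' U' s) t)
  rw [e₂, frc_eq]
  obtain ⟨N', U', h', e'⟩ := opPlay_spec hw
    (lt_of_land (x := Nat.shiftRight w 3) (m := 511) (by norm_num)) (V.and h₁ h₂)
    (fun N' U' => c (.cons N' U' U' s) t)
  exact ⟨.cons N' U' U' s, t, ⟨h', hs⟩, ht, e'⟩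

theorem sound_C : Sound @opC := by
  intro α w hw s t hs ht c
  unfold opC
  obtain ⟨N, U, I, k, h, hk, e⟩ := K.pop_spec hs (fun N U I k => k.pop fun N' U' I' k' =>
    frc (Nat.lor N N') fun N₂ => frc (Nat.lor U U') fun U₂ => frc (Nat.land I I') fun I₂ =>
      c (.cons N₂ U₂ I₂ k') t)
  rw [e]
  obtain ⟨N', U', I', k', h', hk', e'⟩ := K.pop_spec hk (fun N' U' I' k' =>
    frc (Nat.lor N N') fun N₂ => frc (Nat.lor U U') fun U₂ => frc (Nat.land I I') fun I₂ =>
      c (.cons N₂ U₂ I₂ k') t)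
  rw [e', frc_eq, frc_eq, frc_eq]
  exact ⟨.cons _ _ _ k', t, ⟨V.and h h', hk'⟩, ht, rfl⟩

theorem sound_P : Sound @opP := by
  intro α w hw s t hs ht c
  unfold opP
  rw [frc_eq]
  obtain ⟨N, U, I, k, h, hk, e⟩ := K.pop_spec hs (fun N U I k =>
    opPlay w (Nat.shiftRight w 3) N U I fun N' U' => c (.cons N' U' U' k) t)
  rw [e]
  obtain ⟨N', U', h', e'⟩ := opPlay_spec hw (lt_of_shr hw) h
    (fun N' U' => c (.cons N' U' U' k) t)
  exact ⟨.cons N' U' U' k, t, ⟨h', hk⟩, ht, e'⟩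

theorem sound_G : Sound @opG := by
  intro α w hw s t hs ht c
  unfold opG
  obtain ⟨N, U, I, h, e⟩ := T.get_spec ht (Nat.shiftRight w 3) (fun N U I => c (.cons N U I s) t)
  exact ⟨.cons N U I s, t, ⟨h, hs⟩, ht, e⟩

theorem sound_L : Sound @opL := by
  intro α w hw s t hs ht c
  unfold opL
  rw [frc_eq, frc_eq]
  obtain ⟨N₁, b₁, h₁, e₁⟩ := leafPlay_spec (a := Nat.shiftRight w 12) hw
    (lt_of_land (x := Nat.shiftRight w 3) (m := 511) (by norm_num))
    (fun N₁ b₁ => s.pop fun N U I k =>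
      frc (Nat.lor N N₁) fun N₂ => frc (Nat.lor U b₁) fun U₂ => frc (Nat.land I b₁) fun I₂ =>
        c (.cons N₂ U₂ I₂ k) t)
  rw [e₁]
  obtain ⟨N, U, I, k, h, hk, e⟩ := K.pop_spec hs (fun N U I k =>
      frc (Nat.lor N N₁) fun N₂ => frc (Nat.lor U b₁) fun U₂ => frc (Nat.land I b₁) fun I₂ =>
        c (.cons N₂ U₂ I₂ k) t)
  rw [e, frc_eq, frc_eq, frc_eq]
  exact ⟨.cons _ _ _ k, t, ⟨V.and h h₁, hk⟩, ht, rfl⟩

theorem sound_S : Sound @opS := by
  intro α w hw s t hs ht c
  unfold opS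
  obtain ⟨N, U, I, k, h, hk, e⟩ := K.pop_spec hs (fun N U I k =>
    t.ins (Nat.shiftRight w 3) N U I fun t' => c (.cons N U I k) t')
  rw [e]
  obtain ⟨t', ht', e'⟩ := T.ins_spec ht (Nat.shiftRight w 3) h (fun t' => c (.cons N U I k) t')
  exact ⟨.cons N U I k, t', ⟨h, hk⟩, ht', e'⟩

theorem sound_W : Sound @opW := by
  intro α w hw s t hs ht c
  unfold opW
  rw [frc_eq]
  obtain ⟨N, U, I, k, h, hk, e⟩ := K.pop_spec hs (fun N U I k =>
    frc (Nat.lor N (bitT (Nat.shiftRight w 3))) fun N' => c (.cons N' U I k) t)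
  rw [e, frc_eq]
  refine ⟨.cons _ U I k, t, ⟨?_, hk⟩, ht, rfl⟩
  unfold V
  rw [S'_lor]
  exact Good.weaken _ h

/-- one instruction: the operation is given by the three lowest bits of `w` -/
def step {α : Type} (w : ℕ) (s : K) (t : T) (c : K → T → α) : α :=
  bif Nat.beq (Nat.land w 1) 0 then
    bif Nat.beq (Nat.land w 2) 0 then
      (bif Nat.beq (Nat.land w 4) 0 then opA w s t c else opP w s t c)
    else (bif Nat.beq (Nat.land w 4) 0 then opC w s t c else opG w s t c)
  else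
    bif Nat.beq (Nat.land w 2) 0 then
      (bif Nat.beq (Nat.land w 4) 0 then opB w s t c else opL w s t c)
    else (bif Nat.beq (Nat.land w 4) 0 then opS w s t c else opW w s t c)

theorem sound_step : Sound @step := by
  intro α w hw s t hs ht c
  unfold step
  cases Nat.beq (Nat.land w 1) 0 <;> cases Nat.beq (Nat.land w 2) 0 <;>
    cases Nat.beq (Nat.land w 4) 0 <;> simp only [cond_true, cond_false]
  · exact sound_W hw hs ht c
  · exact sound_S hw hs ht c
  · exact sound_L hw hs ht c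
  · exact sound_B hw hs ht c
  · exact sound_G hw hs ht c
  · exact sound_C hw hs ht c
  · exact sound_P hw hs ht c
  · exact sound_A hw hs ht c

/-- run `f` instructions packed into one number (56 bits each) -/
def runW {α : Type} : ℕ → ℕ → K → T → (K → T → α) → α
  | 0, _, s, t, c => c s t
  | f + 1, code, s, t, c =>
    frc (Nat.land code 72057594037927935) fun w =>
      step w s t fun s' t' => frc (Nat.shiftRight code 56) fun code' => runW f code' s' t' c

theorem runW_spec {α : Type} (f : ℕ) {s : K} {t : T} (hs : s.Valid) (ht : t.Valid) (code : ℕ)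
    (c : K → T → α) : ∃ s' t', s'.Valid ∧ t'.Valid ∧ runW f code s t c = c s' t' := by
  induction f generalizing s t code with
  | zero => exact ⟨s, t, hs, ht, rfl⟩
  | succ f ih =>
    obtain ⟨s', t', hs', ht', e⟩ := sound_step
      (lt_of_land (x := code) (m := 72057594037927935) (by norm_num)) hs ht
      (fun s' t' => frc (Nat.shiftRight code 56) fun code' => runW f code' s' t' c)
    obtain ⟨s'', t'', hs'', ht'', e'⟩ := ih hs' ht' (Nat.shiftRight code 56)
    refine ⟨s'', t'', hs'', ht'', ?_⟩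
    have e0 : runW (f + 1) code s t c = frc (Nat.land code 72057594037927935) fun w =>
      step w s t fun s' t' => frc (Nat.shiftRight code 56) fun code' => runW f code' s' t' c := rfl
    rw [e0, frc_eq, e, frc_eq]
    exact e'

/-- run a list of packed instructions -/
def runL {α : Type} : List ℕ → K → T → (K → T → α) → α
  | [], s, t, c => c s t
  | code :: l, s, t, c => runW 32 code s t fun s' t' => runL l s' t' c

theorem runL_spec {α : Type} (l : List ℕ) {s : K} {t : T} (hs : s.Valid) (ht : t.Valid)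
    (c : K → T → α) : ∃ s' t', s'.Valid ∧ t'.Valid ∧ runL l s t c = c s' t' := by
  induction l generalizing s t with
  | nil => exact ⟨s, t, hs, ht, rfl⟩
  | cons code l ih =>
    obtain ⟨s', t', hs', ht', e⟩ := runW_spec 32 hs ht code (fun s' t' => runL l s' t' c)
    obtain ⟨s'', t'', hs'', ht'', e'⟩ := ih hs' ht'
    refine ⟨s'', t'', hs'', ht'', ?_⟩
    have e0 : runL (code :: l) s t c = runW 32 code s t fun s' t' => runL l s' t' c := rfl
    rw [e0, e]
    exact e'

/-- The checker: run the program and compare the top of the stack with `(N, U, I)`. -/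
def check (l : List ℕ) (N U I : ℕ) : Bool :=
  runL l .nil .nil fun s _ => s.pop fun N' U' I' _ =>
    Nat.beq (Nat.shiftRight N' 64) N &&
      (Nat.beq (Nat.shiftRight U' 64) U && Nat.beq (Nat.shiftRight I' 64) I)

theorem good_of_check {l : List ℕ} {N U I : ℕ} (h : check l N U I = true) :
    Good (S N) (S U) (S I) := by
  obtain ⟨s', t', hs, ht, hc⟩ := runL_spec l (s := .nil) (t := .nil) trivial trivial
    (fun s _ => s.pop fun N' U' I' _ =>
      Nat.beq (Nat.shiftRight N' 64) N &&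
        (Nat.beq (Nat.shiftRight U' 64) U && Nat.beq (Nat.shiftRight I' 64) I))
  unfold check at h
  rw [hc] at h
  obtain ⟨N', U', I', k, hv, -, e⟩ := K.pop_spec hs (fun N' U' I' _ =>
      Nat.beq (Nat.shiftRight N' 64) N &&
        (Nat.beq (Nat.shiftRight U' 64) U && Nat.beq (Nat.shiftRight I' 64) I))
  rw [e] at h
  simp only [Bool.and_eq_true] at h
  obtain ⟨h1, h2, h3⟩ := h
  have e1 : S' N' = S N := congrArg S (Nat.eq_of_beq_eq_true h1)
  have e2 : S' U' = S U := congrArg S (Nat.eq_of_beq_eq_true h2)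
  have e3 : S' I' = S I := congrArg S (Nat.eq_of_beq_eq_true h3)
  unfold V at hv
  rw [e1, e2, e3] at hv
  exact hv

end Vale.Agent.P062
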