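import Vale.Agent.P062.Sym

/-!
# Combination of the computed patterns
-/

namespace Vale.Agent.P062

theorem Good.and' {N₁ U₁ I₁ N₂ U₂ I₂ N U I : ℕ} (h₁ : Good (S N₁) (S U₁) (S I₁))
    (h₂ : Good (S N₂) (S U₂) (S I₂)) (hN : Nat.lor N₁ N₂ = N) (hU : Nat.lor U₁ U₂ = U)
    (hI : Nat.land I₁ I₂ = I) : Good (S N) (S U) (S I) := by
  rw [← hN, ← hU, ← hI, S_lor, S_lor, S_land]
  exact Good.and h₁ h₂

/-- Breaker's possible first claims in the wedge, as a decidable condition on the bitboard. -/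
theorem wedge_of_decide {I : ℕ} (hlt : I < 2 ^ 400)
    (h : ∀ i < 400, I.testBit i = true → 9 ≤ i / 20 → i / 20 ≤ i % 20 → i = 189) :
    ∀ i : ℕ, I.testBit i = true → 9 ≤ i / 20 → i / 20 ≤ i % 20 → i = 189 := by
  intro i hi
  by_cases hi' : i < 400
  · exact h i hi' hi
  · exfalso
    rw [not_lt] at hi'
    rw [Nat.testBit_eq_false_of_lt (lt_of_lt_of_le hlt (Nat.pow_le_pow_right (by norm_num) hi'))] at hi
    exact absurd hi (by simp)

end Vale.Agent.P062
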