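import Mathlib

/-!
# The Snaky achievement game in the plane: definitions
-/

namespace Vale.Agent.P062

/-- A cell of the square grid, indexed by its lower-left corner. -/
abbrev Cell := ℤ × ℤ

/-- The hexomino Snaky. -/
def snaky : Finset Cell := {(0, 0), (1, 0), (2, 0), (3, 0), (3, 1), (4, 1)}

/-- The eight signed permutation matrices acting on cells: `a` and `b` are the two signs and
`s` says whether the two coordinates are interchanged. -/
def signedPerm (a b : ℤˣ) (s : Bool) (p : Cell) : Cell :=
  if s then ((a : ℤ) * p.2, (b : ℤ) * p.1) else ((a : ℤ) * p.1, (b : ℤ) * p.2)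

/-- An allowed copy of Snaky: a translate of the image of Snaky under a signed permutation. -/
def IsCopy (C : Finset Cell) : Prop :=
  ∃ (t : Cell) (a b : ℤˣ) (s : Bool), C = snaky.image fun p => t + signedPerm a b s p

/-- The cell that Maker claims on its turn number `n` (`n = 0` is the opening turn), when Maker
uses the strategy `σ` (a function of the list of the cells that Breaker has claimed so far, in
order) and Breaker claims `b 0, b 1, b 2, …` on its successive turns. -/
def makerCell (σ : List Cell → Cell) (b : ℕ → Cell) (n : ℕ) : Cell :=
  σ ((List.range n).map b)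

/-- Maker's claim on its turn `n` is legal: the cell has not been claimed before. (Before it,
Maker has made the turns `i < n` and Breaker has made the turns `i < n`.) -/
def MakerLegal (σ : List Cell → Cell) (b : ℕ → Cell) (n : ℕ) : Prop :=
  ∀ i < n, makerCell σ b n ≠ makerCell σ b i ∧ makerCell σ b n ≠ b i

/-- Breaker's claim on its turn `n` is legal: the cell has not been claimed before. (Before it,
Maker has made the turns `i ≤ n` and Breaker has made the turns `i < n`.) -/
def BreakerLegal (σ : List Cell → Cell) (b : ℕ → Cell) (n : ℕ) : Prop :=
  (∀ i ≤ n, b n ≠ makerCell σ b i) ∧ ∀ i < n, b n ≠ b i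

/-- After its turn `n`, Maker owns every cell of some allowed copy of Snaky. -/
def MakerHasCopy (σ : List Cell → Cell) (b : ℕ → Cell) (n : ℕ) : Prop :=
  ∃ C : Finset Cell, IsCopy C ∧ ∀ c ∈ C, ∃ i ≤ n, makerCell σ b i = c

/-- `σ` is a winning strategy for Maker on the initially empty board `ℤ²`, with no handicap:
against every Breaker play, as long as Breaker's claims are legal so are Maker's, and Maker owns
an allowed copy of Snaky after finitely many turns. -/
def IsWinningStrategy (σ : List Cell → Cell) : Prop :=
  ∀ b : ℕ → Cell,
    (∀ n, (∀ i < n, BreakerLegal σ b i) → MakerLegal σ b n) ∧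
    ((∀ i, BreakerLegal σ b i) → ∃ n, MakerHasCopy σ b n)

end Vale.Agent.P062
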