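import Vale.Agent.P062.Defs

/-!
# Soundness of winning patterns, and extraction of a strategy
-/

namespace Vale.Agent.P062

open Finset

/-- Maker (to move, owning `M`, Breaker owning `B`) can force a win with at most `k` more claims. -/
def WinsIn : ℕ → Finset Cell → Finset Cell → Prop
  | 0, M, _ => ∃ C, IsCopy C ∧ C ⊆ M
  | k + 1, M, B => (∃ C, IsCopy C ∧ C ⊆ M) ∨
      ∃ c, c ∉ M ∪ B ∧ ∀ b, b ∉ insert c M ∪ B → WinsIn k (insert c M) (insert b B)

theorem WinsIn.succ {k : ℕ} {M B : Finset Cell} (h : WinsIn k M B) : WinsIn (k + 1) M B := by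
  induction k generalizing M B with
  | zero => exact Or.inl h
  | succ k ih =>
    rcases h with h | ⟨c, hc, h⟩
    · exact Or.inl h
    · exact Or.inr ⟨c, hc, fun b hb => ih (h b hb)⟩

theorem WinsIn.mono {k l : ℕ} (hkl : k ≤ l) {M B : Finset Cell} (h : WinsIn k M B) :
    WinsIn l M B := by
  induction hkl with
  | refl => exact h
  | step _ ih => exact ih.succ

/-- A winning pattern: Maker owns at least `N`, and Breaker owns nothing in `Z`. -/
def PatWin (k : ℕ) (N Z : Set Cell) : Prop :=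
  ∀ M B : Finset Cell, Disjoint M B → N ⊆ (M : Set Cell) → Disjoint Z (B : Set Cell) →
    WinsIn k M B

theorem PatWin.mono {k l : ℕ} (hkl : k ≤ l) {N Z : Set Cell} (h : PatWin k N Z) :
    PatWin l N Z :=
  fun M B h1 h2 h3 => (h M B h1 h2 h3).mono hkl

theorem patWin_copy {C : Finset Cell} (hC : IsCopy C) : PatWin 0 (C : Set Cell) ∅ := by
  intro M B _ h _
  exact ⟨C, hC, by exact_mod_cast h⟩

/-- `Good N U I`: for every cell `b` outside `I` there is a winning pattern inside `(N, U)` whose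
zone avoids `b` (with a uniform bound on the number of claims). -/
def Good (N U I : Set Cell) : Prop :=
  ∃ k : ℕ, ∀ b : Cell, b ∉ I →
    ∃ N' Z' : Set Cell, PatWin k N' Z' ∧ N' ⊆ N ∧ Z' ⊆ U ∧ b ∉ Z'

theorem Good.of_patWin {k : ℕ} {N Z : Set Cell} (h : PatWin k N Z) : Good N Z Z :=
  ⟨k, fun _ hb => ⟨N, Z, h, subset_rfl, subset_rfl, hb⟩⟩

theorem Good.and {N₁ U₁ I₁ N₂ U₂ I₂ : Set Cell} (h₁ : Good N₁ U₁ I₁) (h₂ : Good N₂ U₂ I₂) :
    Good (N₁ ∪ N₂) (U₁ ∪ U₂) (I₁ ∩ I₂) := by
  obtain ⟨k₁, h₁⟩ := h₁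
  obtain ⟨k₂, h₂⟩ := h₂
  refine ⟨max k₁ k₂, fun b hb => ?_⟩
  by_cases h : b ∈ I₁
  · have h' : b ∉ I₂ := fun h' => hb ⟨h, h'⟩
    obtain ⟨N', Z', hp, hN, hZ, hbZ⟩ := h₂ b h'
    exact ⟨N', Z', hp.mono (le_max_right _ _), hN.trans Set.subset_union_right,
      hZ.trans Set.subset_union_right, hbZ⟩
  · obtain ⟨N', Z', hp, hN, hZ, hbZ⟩ := h₁ b h
    exact ⟨N', Z', hp.mono (le_max_left _ _), hN.trans Set.subset_union_left,
      hZ.trans Set.subset_union_left, hbZ⟩

theorem Good.patWin_play {N U I : Set Cell} (y : Cell) (h : Good N U I) (hI : I ⊆ N ∪ {y}) :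
    ∃ k, PatWin k (N \ {y}) (U ∪ {y}) := by
  obtain ⟨k, h⟩ := h
  refine ⟨k + 1, ?_⟩
  intro M B hMB hN hZ
  -- the cell that Maker claims
  obtain ⟨c, hc, hyc⟩ : ∃ c, c ∉ M ∪ B ∧ y ∈ insert c M := by
    by_cases hy : y ∈ M
    · obtain ⟨c, hc⟩ := Infinite.exists_notMem_finset (M ∪ B)
      exact ⟨c, hc, Finset.mem_insert_of_mem hy⟩
    · refine ⟨y, ?_, Finset.mem_insert_self _ _⟩
      rw [Finset.mem_union, not_or]
      refine ⟨hy, fun hyB => ?_⟩
      exact (Set.disjoint_left.mp hZ) (Or.inr rfl) (Finset.mem_coe.mpr hyB)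
  have hNM : N ⊆ ((insert c M : Finset Cell) : Set Cell) := by
    intro x hx
    by_cases hxy : x = y
    · subst hxy; exact_mod_cast hyc
    · have : x ∈ (M : Set Cell) := hN ⟨hx, hxy⟩
      exact_mod_cast Finset.mem_insert_of_mem (by exact_mod_cast this)
  refine Or.inr ⟨c, hc, fun b hb => ?_⟩
  rw [Finset.mem_union, not_or] at hb hc
  have hbI : b ∉ I := by
    intro hbI
    rcases hI hbI with h' | h'
    · exact hb.1 (by exact_mod_cast hNM h')
    · rw [Set.mem_singleton_iff] at h'
      exact hb.1 (h' ▸ hyc)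
  obtain ⟨N', Z', hp, hN', hZ', hbZ⟩ := h b hbI
  apply hp
  · rw [Finset.disjoint_left]
    intro x hx hx'
    rw [Finset.mem_insert] at hx hx'
    rcases hx' with rfl | hx'
    · exact hb.1 (Finset.mem_insert.mpr hx)
    · rcases hx with rfl | hx
      · exact hc.2 hx'
      · exact (Finset.disjoint_left.mp hMB) hx hx'
  · exact hN'.trans hNM
  · rw [Set.disjoint_left]
    intro x hx hx'
    rw [Finset.mem_coe, Finset.mem_insert] at hx'
    rcases hx' with rfl | hx'
    · exact hbZ hx
    · exact (Set.disjoint_left.mp hZ) (Or.inl (hZ' hx)) (Finset.mem_coe.mpr hx')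

theorem Good.play {N U I : Set Cell} (y : Cell) (h : Good N U I) (hI : I ⊆ N ∪ {y}) :
    Good (N \ {y}) (U ∪ {y}) (U ∪ {y}) := by
  obtain ⟨k, hk⟩ := h.patWin_play y hI
  exact Good.of_patWin hk

/-! ### From `WinsIn` to a strategy -/

/-- a cell that keeps the win and shortens it, if there is one; otherwise any free cell -/
noncomputable def pick (M B : Finset Cell) : Cell := by
  classical
  exact
    if h : ∃ k, WinsIn k M B then
      if h' : ∃ c, c ∉ M ∪ B ∧ ∀ b, b ∉ insert c M ∪ B →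
          WinsIn (Nat.find h - 1) (insert c M) (insert b B) then
        Classical.choose h'
      else Classical.choose (Infinite.exists_notMem_finset (M ∪ B))
    else Classical.choose (Infinite.exists_notMem_finset (M ∪ B))

theorem pick_notMem (M B : Finset Cell) : pick M B ∉ M ∪ B := by
  classical
  unfold pick
  split_ifs with h h'
  · exact (Classical.choose_spec h').1
  · exact Classical.choose_spec (Infinite.exists_notMem_finset (M ∪ B))
  · exact Classical.choose_spec (Infinite.exists_notMem_finset (M ∪ B))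

/-- If Maker can win with at most `k + 1` more claims and does not own a copy yet, then the choice
`pick` leads to positions in which at most `k` more claims are needed. -/
theorem pick_spec {k : ℕ} {M B : Finset Cell} (hw : WinsIn (k + 1) M B)
    (hn : ¬ ∃ C, IsCopy C ∧ C ⊆ M) :
    ∀ b, b ∉ insert (pick M B) M ∪ B → WinsIn k (insert (pick M B) M) (insert b B) := by
  classical
  have h : ∃ k, WinsIn k M B := ⟨k + 1, hw⟩
  have hk : Nat.find h ≤ k + 1 := Nat.find_min' h hw
  have hs := Nat.find_spec h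
  obtain ⟨j, hj⟩ : ∃ j, Nat.find h = j + 1 := by
    rcases hj : Nat.find h with _ | j
    · rw [hj] at hs; exact absurd hs hn
    · exact ⟨j, rfl⟩
  rw [hj] at hs hk
  have h' : ∃ c, c ∉ M ∪ B ∧ ∀ b, b ∉ insert c M ∪ B →
      WinsIn (Nat.find h - 1) (insert c M) (insert b B) := by
    rw [hj, Nat.add_sub_cancel]
    rcases hs with hs | hs
    · exact absurd hs hn
    · exact hs
  have hp : pick M B = Classical.choose h' := by
    unfold pick; rw [dif_pos h, dif_pos h']
  intro b hb
  rw [hp] at hb ⊢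
  have := (Classical.choose_spec h').2 b hb
  exact this.mono (by omega)

/-- The position (Maker's cells, Breaker's cells), Maker to move, after Breaker's claims `l`. -/
noncomputable def pos (l : List Cell) : Finset Cell × Finset Cell :=
  l.foldl (fun p b => (insert (pick p.1 p.2) p.1, insert b p.2)) (∅, ∅)

/-- The strategy. -/
noncomputable def strat (l : List Cell) : Cell := pick (pos l).1 (pos l).2

theorem pos_succ (b : ℕ → Cell) (n : ℕ) :
    pos ((List.range (n + 1)).map b) =
      (insert (makerCell strat b n) (pos ((List.range n).map b)).1,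
        insert (b n) (pos ((List.range n).map b)).2) := by
  rw [List.range_succ, List.map_append]
  simp [pos, List.foldl_append, makerCell, strat]

theorem pos_fst (b : ℕ → Cell) (n : ℕ) (c : Cell) :
    c ∈ (pos ((List.range n).map b)).1 ↔ ∃ i < n, makerCell strat b i = c := by
  induction n with
  | zero => simp [pos]
  | succ n ih =>
    rw [pos_succ, Finset.mem_insert, ih]
    constructor
    · rintro (h | ⟨i, hi, h⟩)
      · exact ⟨n, Nat.lt_succ_self n, h.symm⟩
      · exact ⟨i, Nat.lt_succ_of_lt hi, h⟩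
    · rintro ⟨i, hi, h⟩
      rcases Nat.lt_succ_iff_lt_or_eq.mp hi with hi | rfl
      · exact Or.inr ⟨i, hi, h⟩
      · exact Or.inl h.symm

theorem pos_snd (b : ℕ → Cell) (n : ℕ) (c : Cell) :
    c ∈ (pos ((List.range n).map b)).2 ↔ ∃ i < n, b i = c := by
  induction n with
  | zero => simp [pos]
  | succ n ih =>
    rw [pos_succ, Finset.mem_insert, ih]
    constructor
    · rintro (h | ⟨i, hi, h⟩)
      · exact ⟨n, Nat.lt_succ_self n, h.symm⟩
      · exact ⟨i, Nat.lt_succ_of_lt hi, h⟩
    · rintro ⟨i, hi, h⟩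
      rcases Nat.lt_succ_iff_lt_or_eq.mp hi with hi | rfl
      · exact Or.inr ⟨i, hi, h⟩
      · exact Or.inl h.symm

theorem makerLegal_strat (b : ℕ → Cell) (n : ℕ) : MakerLegal strat b n := by
  intro i hi
  have h := pick_notMem (pos ((List.range n).map b)).1 (pos ((List.range n).map b)).2
  rw [Finset.mem_union, not_or, pos_fst, pos_snd] at h
  refine ⟨fun h' => h.1 ⟨i, hi, ?_⟩, fun h' => h.2 ⟨i, hi, ?_⟩⟩
  · rw [← h']; rfl
  · rw [← h']; rfl

theorem hasCopy_of_pos {b : ℕ → Cell} {n : ℕ}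
    (h : ∃ C, IsCopy C ∧ C ⊆ (pos ((List.range n).map b)).1) : MakerHasCopy strat b n := by
  obtain ⟨C, hC, hCM⟩ := h
  refine ⟨C, hC, fun c hc => ?_⟩
  have := hCM hc
  rw [pos_fst] at this
  obtain ⟨i, hi, h⟩ := this
  exact ⟨i, hi.le, h⟩

theorem wins_follow (b : ℕ → Cell) (hb : ∀ i, BreakerLegal strat b i) (k : ℕ) :
    ∀ n, WinsIn k (pos ((List.range n).map b)).1 (pos ((List.range n).map b)).2 →
      ∃ m, MakerHasCopy strat b m := by
  induction k with
  | zero => intro n h; exact ⟨n, hasCopy_of_pos h⟩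
  | succ k ih =>
    intro n h
    by_cases hn : ∃ C, IsCopy C ∧ C ⊆ (pos ((List.range n).map b)).1
    · exact ⟨n, hasCopy_of_pos hn⟩
    · have hs := pick_spec h hn (b n)
      have hm : pick (pos ((List.range n).map b)).1 (pos ((List.range n).map b)).2 =
          makerCell strat b n := rfl
      rw [hm] at hs
      apply ih (n + 1)
      rw [pos_succ]
      apply hs
      rw [Finset.mem_union, not_or, Finset.mem_insert, not_or]
      refine ⟨⟨(hb n).1 n le_rfl, ?_⟩, ?_⟩
      · rw [pos_fst]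
        rintro ⟨i, hi, h'⟩
        exact (hb n).1 i hi.le h'.symm
      · rw [pos_snd]
        rintro ⟨i, hi, h'⟩
        exact (hb n).2 i hi h'.symm

theorem isWinningStrategy_of_winsIn {k : ℕ} (h : WinsIn k ∅ ∅) : IsWinningStrategy strat := by
  intro b
  refine ⟨fun n _ => makerLegal_strat b n, fun hb => ?_⟩
  exact wins_follow b hb k 0 (by simpa [pos] using h)

theorem winning_of_good {U I : Set Cell} (h : Good ∅ U I) (hI : ∃ b, b ∉ I) :
    ∃ σ, IsWinningStrategy σ := by
  classical
  obtain ⟨k, h⟩ := h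
  obtain ⟨b, hb⟩ := hI
  obtain ⟨N', Z', hp, hN, -, -⟩ := h b hb
  refine ⟨strat, isWinningStrategy_of_winsIn (k := k) (hp ∅ ∅ (by simp) ?_ (by simp))⟩
  exact hN.trans (by simp)

end Vale.Agent.P062
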