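import Vale.Agent.P062.Check

/-!
# Symmetries of the board, and the final assembly
-/

namespace Vale.Agent.P062

open Finset

/-- `g` sends allowed copies to allowed copies. -/
def Pres (g : Equiv.Perm Cell) : Prop := ∀ C : Finset Cell, IsCopy C → IsCopy (C.image g)

theorem WinsIn.image {g : Equiv.Perm Cell} (hg : Pres g) {k : ℕ} {M B : Finset Cell}
    (h : WinsIn k M B) : WinsIn k (M.image g) (B.image g) := by
  have hcopy : ∀ M : Finset Cell, (∃ C, IsCopy C ∧ C ⊆ M) → ∃ C, IsCopy C ∧ C ⊆ M.image g := by
    rintro M ⟨C, hC, hCM⟩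
    exact ⟨C.image g, hg C hC, Finset.image_subset_image hCM⟩
  induction k generalizing M B with
  | zero => exact hcopy M h
  | succ k ih =>
    rcases h with h | ⟨c, hc, h⟩
    · exact Or.inl (hcopy M h)
    · refine Or.inr ⟨g c, ?_, fun b hb => ?_⟩
      · rw [← Finset.image_union, Finset.mem_image]
        rintro ⟨x, hx, hxc⟩
        exact hc (g.injective hxc ▸ hx)
      · have hb' : g.symm b ∉ insert c M ∪ B := by
          intro h'
          apply hb
          rw [← Finset.image_insert, ← Finset.image_union]
          exact Finset.mem_image.mpr ⟨g.symm b, h', g.apply_symm_apply b⟩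
        have := ih (h _ hb')
        rwa [Finset.image_insert, Finset.image_insert, g.apply_symm_apply] at this

/-- reflection in the line `2 x = a` -/
def reflX (a : ℤ) : Equiv.Perm Cell where
  toFun p := (a - p.1, p.2)
  invFun p := (a - p.1, p.2)
  left_inv p := by simp
  right_inv p := by simp

/-- reflection in the line `2 y = a` -/
def reflY (a : ℤ) : Equiv.Perm Cell where
  toFun p := (p.1, a - p.2)
  invFun p := (p.1, a - p.2)
  left_inv p := by simp
  right_inv p := by simp

/-- reflection in the diagonal -/
def swp : Equiv.Perm Cell where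
  toFun p := (p.2, p.1)
  invFun p := (p.2, p.1)
  left_inv _ := rfl
  right_inv _ := rfl

theorem pres_reflX (u : ℤ) : Pres (reflX u) := by
  rintro C ⟨t, a, b, s, rfl⟩
  refine ⟨(u - t.1, t.2), -a, b, s, ?_⟩
  rw [Finset.image_image]
  apply Finset.image_congr
  intro p _
  cases s <;> simp [reflX, signedPerm, Prod.ext_iff] <;> ring

theorem pres_reflY (u : ℤ) : Pres (reflY u) := by
  rintro C ⟨t, a, b, s, rfl⟩
  refine ⟨(t.1, u - t.2), a, -b, s, ?_⟩
  rw [Finset.image_image]
  apply Finset.image_congr
  intro p _
  cases s <;> simp [reflY, signedPerm, Prod.ext_iff] <;> ring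

theorem pres_swp : Pres swp := by
  rintro C ⟨t, a, b, s, rfl⟩
  refine ⟨(t.2, t.1), b, a, !s, ?_⟩
  rw [Finset.image_image]
  apply Finset.image_congr
  intro p _
  cases s <;> simp [swp, signedPerm]

/-- the opening cell -/
def O : Cell := (9, 9)

theorem wins_of_image {g : Equiv.Perm Cell} (hg : Pres g) (hgg : ∀ c, g (g c) = c)
    (hO : g O = O) {k : ℕ} {b : Cell} (h : WinsIn k {O} {g b}) : WinsIn k {O} {b} := by
  have := h.image hg
  rwa [Finset.image_singleton, Finset.image_singleton, hgg, hO] at this

/-- If Maker, owning the opening cell, wins against every Breaker cell in one of the eight wedges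
at the opening cell, then Maker has a winning strategy. -/
theorem exists_strategy_of_wedge {k : ℕ}
    (h : ∀ b : Cell, b ≠ O → 9 ≤ b.2 → b.2 ≤ b.1 → WinsIn k {O} {b}) :
    ∃ σ, IsWinningStrategy σ := by
  have h1 : ∀ b : Cell, b ≠ O → 9 ≤ b.2 → 9 ≤ b.1 → WinsIn k {O} {b} := by
    intro b hb h2 h1
    rcases le_total b.2 b.1 with hle | hle
    · exact h b hb h2 hle
    · apply wins_of_image (g := swp) pres_swp (fun _ => rfl) rfl
      apply h
      · intro h'
        apply hb
        have := congrArg swp h'
        exact this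
      · exact h1
      · exact hle
  have h2 : ∀ b : Cell, b ≠ O → 9 ≤ b.1 → WinsIn k {O} {b} := by
    intro b hb hx
    rcases le_total 9 b.2 with hle | hle
    · exact h1 b hb hle hx
    · have hinv : ∀ c, reflY 18 (reflY 18 c) = c := fun c => by simp [reflY]
      apply wins_of_image (g := reflY 18) (pres_reflY 18) hinv (by simp [reflY, O])
      apply h1
      · intro h'
        apply hb
        have := congrArg (reflY 18) h'
        rw [hinv] at this
        rw [this]; simp [reflY, O]
      · simp only [reflY, Equiv.coe_fn_mk]; omega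
      · exact hx
  have h3 : ∀ b : Cell, b ≠ O → WinsIn k {O} {b} := by
    intro b hb
    rcases le_total 9 b.1 with hle | hle
    · exact h2 b hb hle
    · have hinv : ∀ c, reflX 18 (reflX 18 c) = c := fun c => by simp [reflX]
      apply wins_of_image (g := reflX 18) (pres_reflX 18) hinv (by simp [reflX, O])
      apply h2
      · intro h'
        apply hb
        have := congrArg (reflX 18) h'
        rw [hinv] at this
        rw [this]; simp [reflX, O]
      · simp only [reflX, Equiv.coe_fn_mk]; omega
  refine ⟨strat, isWinningStrategy_of_winsIn (k := k + 1) ?_⟩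
  refine Or.inr ⟨O, by simp, fun b hb => ?_⟩
  have hbO : b ≠ O := by simpa using hb
  simpa using h3 b hbO

theorem exists_strategy_of_good {N U I : ℕ} (h : Good (S N) (S U) (S I))
    (hN : N = Nat.shiftLeft 1 189)
    (hI : ∀ i : ℕ, I.testBit i = true → 9 ≤ i / 20 → i / 20 ≤ i % 20 → i = 189) :
    ∃ σ, IsWinningStrategy σ := by
  obtain ⟨k, h⟩ := h
  apply exists_strategy_of_wedge (k := k)
  intro b hb h2 h1
  have hbI : b ∉ S I := by
    rintro ⟨i, hi, rfl⟩
    apply hb
    have e1 : 9 ≤ i / 20 := by
      have : (9 : ℤ) ≤ ((i / 20 : ℕ) : ℤ) := h2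
      exact_mod_cast this
    have e2 : i / 20 ≤ i % 20 := by
      have : ((i / 20 : ℕ) : ℤ) ≤ ((i % 20 : ℕ) : ℤ) := h1
      exact_mod_cast this
    rw [hI i hi e1 e2]
    simp [cellOf, O]
  obtain ⟨N', Z', hp, hN', -, hbZ⟩ := h b hbI
  have hS : S N = {O} := by
    rw [hN, S_bit]; simp [cellOf, O]
  apply hp
  · simpa using hb.symm
  · rw [hS] at hN'
    simpa using hN'
  · simpa using hbZ

end Vale.Agent.P062
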