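import Vale.Agent.P062.Comb
import Vale.Agent.P062.PatX10
import Vale.Agent.P062.PatX11
import Vale.Agent.P062.PatX20
import Vale.Agent.P062.PatX21
import Vale.Agent.P062.PatX22
import Vale.Agent.P062.PatX31
import Vale.Agent.P062.PatX32

/-! Combination of the computed patterns -/

namespace Vale.Agent.P062

theorem all0 : Good (S 0x200000000000000000000000000000000000000000000000) (S 0x155401ffd07fffcffffc7fffefffff7fffffffffffffffffffffbffffffffffffffffffffff7ffff7ffff1ffff1bffc02ffc) (S 0x155401ffd07fffcffffc7fffefffff7fffffffffffffffffffffbffffffffffffffffffffff7ffff7ffff1ffff1bffc02ffc) := goodX10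

theorem all1 : Good (S 0x200000000000000000000000000000000000000000000000) (S 0x155401ffd07fffcffffc7fffefffff7ffffffffffffffffffffffffffffffffffffffffffff7ffff7ffff1ffff1bffc02ffc) (S 0x140001c001fe007fe007ff00fff80fff80fbfc0fbf83fffc1fffc3fffc0fff003fe001fc0005400000000000) :=
  Good.and' all0 goodX11 (by decide +kernel) (by decide +kernel) (by decide +kernel)

theorem all2 : Good (S 0x200000000000000000000000000000000000000000000000) (S 0x155401ffd07fffcffffc7fffefffff7ffffffffffffffffffffffffffffffffffffffffffff7ffff7ffff1ffff1bffc02ffc) (S 0x78000fc003fe007fe003ff007bf8003f807ffc03ff807ffc03ff000fe0007c0004400000000000) :=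
  Good.and' all1 goodX20 (by decide +kernel) (by decide +kernel) (by decide +kernel)

theorem all3 : Good (S 0x200000000000000000000000000000000000000000000000) (S 0x155401ffd07fffcffffc7fffefffff7ffffffffffffffffffffffffffffffffffffffffffff7ffff7ffff1ffff1bffc02ffc) (S 0x180003c000fe007fe003ff0073f8003f807ffc03ff807ffc03ff000fc000400000000000000000) :=
  Good.and' all2 goodX21 (by decide +kernel) (by decide +kernel) (by decide +kernel)

theorem all4 : Good (S 0x200000000000000000000000000000000000000000000000) (S 0x155401ffd07fffcffffc7fffefffff7ffffffffffffffffffffffffffffffffffffffffffff7ffff7ffff1ffff1bffc02ffc) (S 0x80003c0007e000fe0017f0033f8003f807ff803ff807ff803ff000fc000000000000000000000) :=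
  Good.and' all3 goodX22 (by decide +kernel) (by decide +kernel) (by decide +kernel)

theorem all5 : Good (S 0x200000000000000000000000000000000000000000000000) (S 0x155401ffd07fffcffffc7fffefffff7ffffffffffffffffffffffffffffffffffffffffffff7ffff7ffff1ffff1bffc02ffc) (S 0x300007e000fe0017f0003f8003f803ff803ff003ff803ff000fc000000000000000000000) :=
  Good.and' all4 goodX31 (by decide +kernel) (by decide +kernel) (by decide +kernel)

theorem all6 : Good (S 0x200000000000000000000000000000000000000000000000) (S 0x155401ffd07fffcffffc7fffefffff7ffffffffffffffffffffffffffffffffffffffffffff7ffff7ffff1ffff1bffc02ffc) (S 0x100007e000fe0007e0003f0003f803ff803ff003ff003fe000fc000000000000000000000) :=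
  Good.and' all5 goodX32 (by decide +kernel) (by decide +kernel) (by decide +kernel)

theorem maker_wins : ∃ σ : List Cell → Cell, IsWinningStrategy σ := by
  refine exists_strategy_of_good all6 (by decide +kernel) (wedge_of_decide (by decide +kernel) ?_)
  decide +kernel

end Vale.Agent.P062
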